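import Mathlib

/-!
A removal dichotomy for words: either a word contains `s^k` copies of a pattern of length `k`
as a subsequence, or fewer than `k * s` of its positions meet all copies.
-/

namespace Vale.Agent.Lib.P037

open Finset

/-- A finite set of size at least `s` has a subset of size `s` all of whose elements lie above
all the other elements. -/
theorem exists_upper_subset {β : Type} [LinearOrder β] (Occ : Finset β) (s : ℕ)
    (hs : s ≤ Occ.card) :
    ∃ O : Finset β, O ⊆ Occ ∧ O.card = s ∧ ∀ p ∈ O, ∀ q ∈ Occ, q ∉ O → q < p := by
  induction s with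
  | zero => exact ⟨∅, Finset.empty_subset _, rfl, by simp⟩
  | succ s ih =>
    obtain ⟨O, hO, hcard, hup⟩ := ih (Nat.le_of_succ_le hs)
    have hne : (Occ \ O).Nonempty := by
      rw [← Finset.card_pos, Finset.card_sdiff_of_subset hO]
      omega
    have hm : (Occ \ O).max' hne ∈ Occ \ O := Finset.max'_mem _ _
    rw [Finset.mem_sdiff] at hm
    refine ⟨insert ((Occ \ O).max' hne) O, ?_, ?_, ?_⟩
    · exact Finset.insert_subset hm.1 hO
    · rw [Finset.card_insert_of_notMem hm.2, hcard]
    · intro p hp q hq hqn
      rw [Finset.mem_insert, not_or] at hqn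
      have hqO : q ∈ Occ \ O := Finset.mem_sdiff.mpr ⟨hq, hqn.2⟩
      have hqle : q ≤ (Occ \ O).max' hne := Finset.le_max' _ _ hqO
      have hqlt : q < (Occ \ O).max' hne := lt_of_le_of_ne hqle hqn.1
      rcases Finset.mem_insert.mp hp with rfl | hpO
      · exact hqlt
      · exact hup p hpO q hq hqn.2

/-- The word dichotomy. `w` is a word indexed by a finite linear order, `u` a pattern of length
`k`, `D` a set of allowed positions. Either there are blocks `O 0 < O 1 < ... < O (k-1)` of `s`
positions each, the positions of `O j` carrying the letter `u j`, or fewer than `k * s`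
positions, each carrying a letter of the pattern, meet every copy of the pattern. -/
theorem word_dichotomy {β : Type} [LinearOrder β] {α : Type} [DecidableEq α] (w : β → α)
    (s : ℕ) :
    ∀ (k : ℕ) (u : Fin k → α) (D : Finset β),
      (∃ O : Fin k → Finset β, (∀ j, (O j).card = s) ∧ (∀ j, ∀ p ∈ O j, p ∈ D ∧ w p = u j) ∧
          (∀ i j, i < j → ∀ p ∈ O i, ∀ q ∈ O j, p < q)) ∨
      (∃ P : Finset β, P.card < k * s ∧ (∀ p ∈ P, ∃ j, w p = u j) ∧
          ∀ γ : Fin k → β, StrictMono γ → (∀ j, γ j ∈ D ∧ w (γ j) = u j) → ∃ j, γ j ∈ P) := by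
  intro k
  induction k with
  | zero =>
    intro u D
    left
    exact ⟨fun j => j.elim0, fun j => j.elim0, fun j => j.elim0, fun i => i.elim0⟩
  | succ k ih =>
    intro u D
    by_cases hcard : (D.filter (fun p => w p = u (Fin.last k))).card < s
    · right
      refine ⟨D.filter (fun p => w p = u (Fin.last k)), ?_, ?_, ?_⟩
      · calc (D.filter (fun p => w p = u (Fin.last k))).card < s := hcard
          _ ≤ (k + 1) * s := Nat.le_mul_of_pos_left s (Nat.succ_pos k)
      · intro p hp
        exact ⟨Fin.last k, (Finset.mem_filter.mp hp).2⟩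
      · intro γ _ hγ
        exact ⟨Fin.last k, Finset.mem_filter.mpr (hγ (Fin.last k))⟩
    · obtain ⟨OL, hOL, hOLcard, hup⟩ :=
        exists_upper_subset (D.filter (fun p => w p = u (Fin.last k))) s (not_lt.mp hcard)
      have hOLmem : ∀ p ∈ OL, p ∈ D ∧ w p = u (Fin.last k) :=
        fun p hp => Finset.mem_filter.mp (hOL hp)
      rcases ih (fun j => u j.castSucc) (D.filter (fun p => ∀ q ∈ OL, p < q)) with
        ⟨O', hO'card, hO'mem, hO'ord⟩ | ⟨P', hP'card, hP'mem, hP'hit⟩
      · left
        refine ⟨fun j => Fin.lastCases OL (fun j' => O' j') j, ?_, ?_, ?_⟩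
        · intro j
          refine Fin.lastCases ?_ (fun j' => ?_) j
          · simp only [Fin.lastCases_last]; exact hOLcard
          · simp only [Fin.lastCases_castSucc]; exact hO'card j'
        · intro j
          refine Fin.lastCases ?_ (fun j' => ?_) j
          · simp only [Fin.lastCases_last]; exact hOLmem
          · simp only [Fin.lastCases_castSucc]
            intro p hp
            exact ⟨(Finset.mem_filter.mp (hO'mem j' p hp).1).1, (hO'mem j' p hp).2⟩
        · intro i j
          refine Fin.lastCases ?_ (fun j' => ?_) j
          · refine Fin.lastCases ?_ (fun i' => ?_) i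
            · intro h; exact absurd h (lt_irrefl _)
            · intro _ p hp q hq
              simp only [Fin.lastCases_castSucc] at hp
              simp only [Fin.lastCases_last] at hq
              exact (Finset.mem_filter.mp (hO'mem i' p hp).1).2 q hq
          · refine Fin.lastCases ?_ (fun i' => ?_) i
            · intro h
              exact absurd h (not_lt.mpr (Fin.le_last _))
            · intro h p hp q hq
              simp only [Fin.lastCases_castSucc] at hp hq
              exact hO'ord i' j' (Fin.castSucc_lt_castSucc_iff.mp h) p hp q hq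
      · right
        refine ⟨P' ∪ OL, ?_, ?_, ?_⟩
        · calc (P' ∪ OL).card ≤ P'.card + OL.card := Finset.card_union_le _ _
            _ < k * s + s := by rw [hOLcard]; exact Nat.add_lt_add_right hP'card s
            _ = (k + 1) * s := by ring
        · intro p hp
          rcases Finset.mem_union.mp hp with hp | hp
          · obtain ⟨j, hj⟩ := hP'mem p hp
            exact ⟨j.castSucc, hj⟩
          · exact ⟨Fin.last k, (hOLmem p hp).2⟩
        · intro γ hγmono hγ
          by_cases hlast : γ (Fin.last k) ∈ OL
          · exact ⟨Fin.last k, Finset.mem_union_right _ hlast⟩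
          · have hbelow : ∀ q ∈ OL, γ (Fin.last k) < q := fun q hq =>
              hup q hq (γ (Fin.last k)) (Finset.mem_filter.mpr (hγ (Fin.last k))) hlast
            have hmono' : StrictMono (fun j : Fin k => γ j.castSucc) :=
              fun a b hab => hγmono (Fin.castSucc_lt_castSucc_iff.mpr hab)
            obtain ⟨j, hj⟩ := hP'hit (fun j => γ j.castSucc) hmono' (fun j => by
              refine ⟨Finset.mem_filter.mpr ⟨(hγ j.castSucc).1, fun q hq => ?_⟩,
                (hγ j.castSucc).2⟩
              exact lt_trans (hγmono (Fin.castSucc_lt_last j)) (hbelow q hq))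
            exact ⟨j.castSucc, Finset.mem_union_left _ hj⟩

/-- Blocks give `s ^ k` copies. -/
theorem blocks_card {β : Type} [LinearOrder β] [Fintype β] [DecidableEq β] {k : ℕ} (s : ℕ)
    (O : Fin k → Finset β) (hcard : ∀ j, (O j).card = s) :
    (Fintype.piFinset O).card = s ^ k := by
  rw [Fintype.card_piFinset, Finset.prod_congr rfl (fun j _ => hcard j), Finset.prod_const,
    Finset.card_univ, Fintype.card_fin]

end Vale.Agent.Lib.P037
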