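import Mathlib
import Vale.Agent.Lib.P037.Words

/-!
Ordered copies of a binary pattern in a binary matrix, and the row-subset removal dichotomy.
-/

namespace Vale.Agent.Lib.P037

open Finset

/-- `ρ`, `γ` (the chosen rows and columns, in increasing order) form an ordered copy of the
`k × k` pattern `H` in the `n × n` matrix `A`. -/
def IsCopy {k n : ℕ} (H : Fin k → Fin k → Bool) (A : Fin n → Fin n → Bool)
    (ρ γ : Fin k → Fin n) : Prop :=
  StrictMono ρ ∧ StrictMono γ ∧ ∀ i j, A (ρ i) (γ j) = H i j

/-- The number `N_H(A)` of ordered copies of `H` in `A`. -/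
noncomputable def copies {k n : ℕ} (H : Fin k → Fin k → Bool) (A : Fin n → Fin n → Bool) : ℕ :=
  Set.ncard {p : (Fin k → Fin n) × (Fin k → Fin n) | IsCopy H A p.1 p.2}

/-- The number of ordered copies of `H` in `A` that use the rows `ρ`. -/
noncomputable def copiesOn {k n : ℕ} (H : Fin k → Fin k → Bool) (A : Fin n → Fin n → Bool)
    (ρ : Fin k → Fin n) : ℕ :=
  Set.ncard {γ : Fin k → Fin n | IsCopy H A ρ γ}

/-- The rows `ρ` of `A` can be repaired with fewer than `m` changes: some matrix `B` agrees with
`A` outside the rows `ρ`, differs from `A` in fewer than `m` entries, and has no ordered copy of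
`H` using the rows `ρ`. -/
def RowRepairable {k n : ℕ} (H : Fin k → Fin k → Bool) (A : Fin n → Fin n → Bool)
    (ρ : Fin k → Fin n) (m : ℕ) : Prop :=
  ∃ B : Fin n → Fin n → Bool, (∀ r, (∀ i, ρ i ≠ r) → ∀ c, B r c = A r c) ∧
    (∀ γ, ¬ IsCopy H B ρ γ) ∧ Set.ncard {p : Fin n × Fin n | B p.1 p.2 ≠ A p.1 p.2} < m

/-- Some single-coordinate flip of a pattern letter is not a pattern letter. -/
theorem flip_exists {k : ℕ} (t : Fin k → Bool) (u : Fin k → (Fin k → Bool))
    (ht : ∃ j, t = u j) : ∃ i, ∀ j, Function.update t i (!t i) ≠ u j := by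
  by_contra hcon
  have hcon' : ∀ i, ∃ j, Function.update t i (!t i) = u j := by
    intro i
    by_contra h
    exact hcon ⟨i, fun j hj => h ⟨j, hj⟩⟩
  choose f hf using hcon'
  have hinj : Function.Injective f := by
    intro i i' hii
    by_contra hne
    have h1 : Function.update t i (!t i) = Function.update t i' (!t i') := by
      rw [hf i, hf i', hii]
    have h2 := congrFun h1 i
    rw [Function.update_self, Function.update_of_ne hne] at h2
    cases hti : t i <;> rw [hti] at h2 <;> simp at h2
  have hsurj : Function.Surjective f := Finite.injective_iff_surjective.mp hinj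
  obtain ⟨j0, hj0⟩ := ht
  obtain ⟨i0, hi0⟩ := hsurj j0
  have h1 : Function.update t i0 (!t i0) = t := by rw [hf i0, hi0, hj0]
  have h2 := congrFun h1 i0
  rw [Function.update_self] at h2
  cases hti : t i0 <;> rw [hti] at h2 <;> simp at h2

/-- The dichotomy for one choice of rows. -/
theorem row_dichotomy {k n : ℕ} (hk : 1 ≤ k) (H : Fin k → Fin k → Bool)
    (A : Fin n → Fin n → Bool) (s : ℕ) (ρ : Fin k → Fin n) (hρ : StrictMono ρ) :
    RowRepairable H A ρ (k * s) ∨ s ^ k ≤ copiesOn H A ρ := by
  classical
  rcases word_dichotomy (fun c : Fin n => fun i : Fin k => A (ρ i) c) s k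
      (fun j : Fin k => fun i : Fin k => H i j) Finset.univ with
    ⟨O, hOcard, hOmem, hOord⟩ | ⟨P, hPcard, hPmem, hPhit⟩
  · right
    unfold copiesOn
    have hsub : ((Fintype.piFinset O : Finset (Fin k → Fin n)) : Set (Fin k → Fin n))
        ⊆ {γ : Fin k → Fin n | IsCopy H A ρ γ} := by
      intro γ hγ
      have hγ' : ∀ j, γ j ∈ O j := by
        intro j
        exact Fintype.mem_piFinset.mp (Finset.mem_coe.mp hγ) j
      refine ⟨hρ, fun a b hab => hOord a b hab (γ a) (hγ' a) (γ b) (hγ' b), fun i j => ?_⟩
      exact congrFun (hOmem j (γ j) (hγ' j)).2 i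
    calc s ^ k = (Fintype.piFinset O).card := (blocks_card s O hOcard).symm
      _ = ((Fintype.piFinset O : Finset (Fin k → Fin n)) : Set (Fin k → Fin n)).ncard :=
          (Set.ncard_coe_finset _).symm
      _ ≤ _ := Set.ncard_le_ncard hsub (Set.toFinite _)
  · left
    -- the column types
    set w : Fin n → (Fin k → Bool) := fun c i => A (ρ i) c with hw
    set u : Fin k → (Fin k → Bool) := fun j i => H i j with hu
    have hex : ∀ c, c ∈ P → ∃ i, ∀ j, Function.update (w c) i (!(w c) i) ≠ u j := by
      intro c hc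
      obtain ⟨j, hj⟩ := hPmem c hc
      exact flip_exists (w c) u ⟨j, hj⟩
    let pick : Fin n → Fin k := fun c =>
      if hc : c ∈ P then Classical.choose (hex c hc) else ⟨0, hk⟩
    have hpick : ∀ c, c ∈ P → ∀ j, Function.update (w c) (pick c) (!(w c) (pick c)) ≠ u j := by
      intro c hc
      have : pick c = Classical.choose (hex c hc) := dif_pos hc
      rw [this]
      exact Classical.choose_spec (hex c hc)
    let B : Fin n → Fin n → Bool := fun r c => if c ∈ P ∧ r = ρ (pick c) then !A r c else A r c
    have hBout : ∀ c, c ∉ P → ∀ r, B r c = A r c := by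
      intro c hc r
      show (if c ∈ P ∧ r = ρ (pick c) then !A r c else A r c) = A r c
      rw [if_neg (fun h => hc h.1)]
    have hBin : ∀ c, c ∈ P →
        (fun i => B (ρ i) c) = Function.update (w c) (pick c) (!(w c) (pick c)) := by
      intro c hc
      funext i
      show (if c ∈ P ∧ ρ i = ρ (pick c) then !A (ρ i) c else A (ρ i) c) = _
      by_cases hi : i = pick c
      · rw [if_pos ⟨hc, by rw [hi]⟩, hi, Function.update_self]
      · rw [if_neg (fun h => hi (hρ.injective h.2)), Function.update_of_ne hi]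
    refine ⟨B, ?_, ?_, ?_⟩
    · intro r hr c
      show (if c ∈ P ∧ r = ρ (pick c) then !A r c else A r c) = A r c
      rw [if_neg (fun h => hr (pick c) h.2.symm)]
    · intro γ hγ
      obtain ⟨_, hγmono, hγeq⟩ := hγ
      have hnotP : ∀ j, γ j ∉ P := by
        intro j hj
        apply hpick (γ j) hj j
        rw [← hBin (γ j) hj]
        funext i
        exact hγeq i j
      obtain ⟨j, hj⟩ := hPhit γ hγmono (fun j => by
        refine ⟨Finset.mem_univ _, ?_⟩
        funext i
        rw [← hBout (γ j) (hnotP j) (ρ i)]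
        exact hγeq i j)
      exact hnotP j hj
    · have hsub : {p : Fin n × Fin n | B p.1 p.2 ≠ A p.1 p.2}
          ⊆ ((P.image (fun c => (ρ (pick c), c)) : Finset (Fin n × Fin n)) : Set (Fin n × Fin n)) := by
        intro p hp
        have hp' : B p.1 p.2 ≠ A p.1 p.2 := hp
        have hcond : p.2 ∈ P ∧ p.1 = ρ (pick p.2) := by
          by_contra hneg
          apply hp'
          show (if p.2 ∈ P ∧ p.1 = ρ (pick p.2) then !A p.1 p.2 else A p.1 p.2) = A p.1 p.2
          rw [if_neg hneg]
        rw [Finset.mem_coe, Finset.mem_image]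
        exact ⟨p.2, hcond.1, by rw [← hcond.2]⟩
      calc Set.ncard {p : Fin n × Fin n | B p.1 p.2 ≠ A p.1 p.2}
          ≤ ((P.image (fun c => (ρ (pick c), c)) : Finset (Fin n × Fin n)) : Set _).ncard :=
            Set.ncard_le_ncard hsub (Finset.finite_toSet _)
        _ = (P.image (fun c => (ρ (pick c), c))).card := Set.ncard_coe_finset _
        _ ≤ P.card := Finset.card_image_le
        _ < k * s := hPcard

theorem copies_eq_sum {k n : ℕ} (H : Fin k → Fin k → Bool) (A : Fin n → Fin n → Bool) :
    copies H A = ∑ ρ : Fin k → Fin n, copiesOn H A ρ := by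
  classical
  unfold copies copiesOn
  rw [Set.ncard_eq_toFinset_card']
  have h : ∀ ρ : Fin k → Fin n, Set.ncard {γ : Fin k → Fin n | IsCopy H A ρ γ}
      = (Finset.univ.filter (fun γ : Fin k → Fin n => IsCopy H A ρ γ)).card := by
    intro ρ
    rw [Set.ncard_eq_toFinset_card']
    congr 1
    ext γ
    simp
  rw [Finset.sum_congr rfl (fun ρ _ => h ρ)]
  have h2 : Set.toFinset {p : (Fin k → Fin n) × (Fin k → Fin n) | IsCopy H A p.1 p.2}
      = Finset.univ.filter (fun p : (Fin k → Fin n) × (Fin k → Fin n) => IsCopy H A p.1 p.2) := by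
    ext p
    simp
  rw [h2, Finset.card_filter, Fintype.sum_prod_type]
  apply Finset.sum_congr rfl
  intro ρ _
  rw [Finset.card_filter]

/-- The global bound: every choice of rows that cannot be repaired with fewer than `k * s`
changes carries at least `s ^ k` copies. -/
theorem global_bound {k n : ℕ} (hk : 1 ≤ k) (H : Fin k → Fin k → Bool)
    (A : Fin n → Fin n → Bool) (s : ℕ) :
    s ^ k * Set.ncard {ρ : Fin k → Fin n | StrictMono ρ ∧ ¬ RowRepairable H A ρ (k * s)}
      ≤ copies H A := by
  classical
  have hBad : Set.ncard {ρ : Fin k → Fin n | StrictMono ρ ∧ ¬ RowRepairable H A ρ (k * s)}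
      = (Finset.univ.filter
          (fun ρ : Fin k → Fin n => StrictMono ρ ∧ ¬ RowRepairable H A ρ (k * s))).card := by
    rw [Set.ncard_eq_toFinset_card']
    congr 1
    ext ρ
    simp
  rw [hBad, copies_eq_sum]
  calc s ^ k * (Finset.univ.filter
          (fun ρ : Fin k → Fin n => StrictMono ρ ∧ ¬ RowRepairable H A ρ (k * s))).card
      = ∑ _ρ ∈ Finset.univ.filter
          (fun ρ : Fin k → Fin n => StrictMono ρ ∧ ¬ RowRepairable H A ρ (k * s)), s ^ k := by
        rw [Finset.sum_const, smul_eq_mul, mul_comm]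
    _ ≤ ∑ ρ ∈ Finset.univ.filter
          (fun ρ : Fin k → Fin n => StrictMono ρ ∧ ¬ RowRepairable H A ρ (k * s)),
          copiesOn H A ρ := by
        apply Finset.sum_le_sum
        intro ρ hρ
        have h := (Finset.mem_filter.mp hρ).2
        rcases row_dichotomy hk H A s ρ h.1 with h' | h'
        · exact absurd h' h.2
        · exact h'
    _ ≤ ∑ ρ : Fin k → Fin n, copiesOn H A ρ :=
        Finset.sum_le_sum_of_subset (Finset.subset_univ _)

end Vale.Agent.Lib.P037
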